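import Vale.Agent.Lib.P038.Sat.Shapes.S6_2t
noncomputable section
namespace Vale.Agent.Lib.P038.Sat.I.M3_2
open Vale.Agent.Lib.P038.Sat
def W : Nat := 56
def M : Nat := 72057594037927935
def GT : Nat := 6380769435200994491305948941578979422407989242453359543846842932294034867899170037685658274725379208262628156663607733842417841808526030731028241671551325173866302505592338529046761098491666265206678243138235478872593272234858417014802733160663713385911084144752375941941335259772324256354111323290871142462411758437276245958993347041644691551985750438526750309034762851662120023136726300411802417365763
def h0 : T := (T.l (nat_lit 0))
def H : T := h0
theorem hlast : getB H 0 = 0 := by decide +kernel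
end Vale.Agent.Lib.P038.Sat.I.M3_2
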