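import Vale.Agent.Lib.P038.Sat.I.M3_2.H
noncomputable section
namespace Vale.Agent.Lib.P038.Sat.I.M3_2.S0
open Vale.Agent.Lib.P038.Sat Vale.Agent.Lib.P038.Sat.I.M3_2
def b0 : List Nat := [nat_lit 3588805953060937,nat_lit 19607195043140357409,nat_lit 7388735318523928,nat_lit 212534744639209918582033,nat_lit 7459121242570792,nat_lit 236176552590482673519792,nat_lit 422264004673579,nat_lit 580823674672906250,nat_lit 75590726351726578125632,nat_lit 7498000875773100042,nat_lit 492667108589595,nat_lit 113378305196362905832272,nat_lit 5277758892539912,nat_lit 89764168135291532626832,nat_lit 211226491617371,nat_lit 47257680868654652476256,nat_lit 1157073398053601290,nat_lit 56713942838351093320576,nat_lit 108655361900957298740080,nat_lit 19027286376485486602,nat_lit 3940821472641143,nat_lit 146402015761723390575633,nat_lit 8651203967059755018,nat_lit 51997340400105933917040,nat_lit 3870487088201831,nat_lit 203064648878301714465793,nat_lit 2886807584617660426,nat_lit 103930690138105770167168,nat_lit 56707026646424047471488,nat_lit 3307580084453463,nat_lit 94451948591649781072881,nat_lit 89769932250387943017360,nat_lit 136982643410005242956640,nat_lit 80334998413767380192080,nat_lit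 80321739957210446318416,nat_lit 3800212833304647,nat_lit 118061475655621542298593,nat_lit 2310769139268321290,nat_lit 184205156302411046341440,nat_lit 3378034727976983,nat_lit 99174891605726373233585,nat_lit 3729895628734519,nat_lit 165290905021523824100305,nat_lit 3659544064426023,nat_lit 207794509140008280409025,nat_lit 1779902433884495496010399772,nat_lit 1393154791224996572520906796,nat_lit 1431797913848124034959933500,nat_lit 179503543673347686157216,nat_lit 122835723043360446499760,nat_lit 132274113533458408950768,nat_lit 1547807563102536675535224908,nat_lit 1586469579802929791261605980,nat_lit 198395315729353407089600,nat_lit 127554630480284211235808,nat_lit 151165885589463625255888,nat_lit 1161036303998233732310237292]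
def p0 : List Nat := [nat_lit 4503599627649024,nat_lit 110689471641512419331,nat_lit 184485456784873127941,nat_lit 31528495926484999,nat_lit 295174930625407877128,nat_lit 40536244937138185,nat_lit 405873410015930548235,nat_lit 479669395159291297803,nat_lit 553442862304514359311,nat_lit 72065290619338768,nat_lit 627238846348363685905,nat_lit 664159356643302760465,nat_lit 85577189013331987,nat_lit 774853332434197667861,nat_lit 99088537651486737,nat_lit 848622295430037856279,nat_lit 922445299422383661081,nat_lit 117102936160993306,nat_lit 996191746619110244379,nat_lit 1033067220368020381724,nat_lit 1106935263105418166302,nat_lit 1143752190608928219167,nat_lit 1180654686505357770784,nat_lit 1217530161903535120417,nat_lit 1254414642851699236872,nat_lit 1328323216886231932963,nat_lit 166650778399326245,nat_lit 1401984092941259980833,nat_lit 1475915170680278261800,nat_lit 1549711170117289926697,nat_lit 1623507151412359692331,nat_lit 13601891246224769557053448,nat_lit 13904233494180660768964641,nat_lit 14206391180122971489738799,nat_lit 1771036075702343745569,nat_lit 1807816966162497093640,nat_lit 1844696929767139205128,nat_lit 15415095616291817524625417,nat_lit 15717142576735888737640474,nat_lit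 1955395418503510310921,nat_lit 1992284393705453584393,nat_lit 2029236428648028487735,nat_lit 16926990729052254103404599]
def o0 : List Nat := [nat_lit 55]
theorem ok : segCheck (Gen.gen sh_6_2_t (flM 3)) W M GT 6 0 1 H [b0] [] [p0] [o0] = true := by decide +kernel
theorem seg {τ : Nat → Bool} (hgen : ∀ t c, Gen.gen sh_6_2_t (flM 3) t = some c → holdsG τ c)
  (hin : ∀ g, g < 0 → HL W (loc GT τ) (getB H g)) :
  ∀ g, 0 ≤ g → g < 1 → HL W (loc GT τ) (getB H g) :=
  segCheck_sound ok hgen hin
end Vale.Agent.Lib.P038.Sat.I.M3_2.S0
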